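import Vale.Agent.Lib.P333.Del

namespace P333

variable {α ι : Type*}
variable {F : ι → List α} {σ : Equiv.Perm ι}

section ArcSet

variable [DecidableEq ι]

/-- The set of arcs of a path given as a list. -/
def arcSet : List ι → Finset (ι × ι)
  | a :: b :: t => insert (a, b) (arcSet (b :: t))
  | _ => ∅

theorem mem_arcSet_cons {a : ι} {t : List ι} {e : ι × ι} (h : e ∈ arcSet (a :: t)) :
    e.1 ∈ a :: t ∧ e.2 ∈ t := by
  induction t generalizing a with
  | nil => simp [arcSet] at h
  | cons b t ih =>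
    simp only [arcSet, Finset.mem_insert] at h
    rcases h with rfl | h
    · simp
    · have := ih h
      exact ⟨List.mem_cons_of_mem _ this.1, List.mem_cons_of_mem _ this.2⟩

theorem mem_arcSet {l : List ι} {e : ι × ι} (h : e ∈ arcSet l) : e.1 ∈ l ∧ e.2 ∈ l := by
  cases l with
  | nil => simp [arcSet] at h
  | cons a t =>
    have := mem_arcSet_cons h
    exact ⟨this.1, List.mem_cons_of_mem _ this.2⟩

theorem pathOv_eq_sum {l : List ι} (hl : l.Nodup) :
    pathOv F l = ∑ e ∈ arcSet l, ov (F e.1) (F e.2) := by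
  induction l with
  | nil => simp [pathOv, arcSet]
  | cons a t ih =>
    cases t with
    | nil => simp [pathOv, arcSet]
    | cons b t =>
      have h1 : (a, b) ∉ arcSet (b :: t) := by
        intro h
        exact (List.nodup_cons.1 hl).1 (mem_arcSet_cons h).1
      simp only [pathOv, arcSet]
      rw [Finset.sum_insert h1, ih (List.nodup_cons.1 hl).2]

theorem arcSet_fst_inj {l : List ι} (hl : l.Nodup) {e e' : ι × ι} (he : e ∈ arcSet l)
    (he' : e' ∈ arcSet l) (h : e.1 = e'.1) : e = e' := by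
  induction l with
  | nil => simp [arcSet] at he
  | cons a t ih =>
    cases t with
    | nil => simp [arcSet] at he
    | cons b t =>
      have hn := List.nodup_cons.1 hl
      simp only [arcSet, Finset.mem_insert] at he he'
      rcases he with rfl | he <;> rcases he' with rfl | he'
      · rfl
      · have h' : a = e'.1 := h
        exact absurd (by rw [h']; exact (mem_arcSet_cons he').1) hn.1
      · have h' : e.1 = a := h
        exact absurd (by rw [← h']; exact (mem_arcSet_cons he).1) hn.1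
      · exact ih hn.2 he he'

theorem arcSet_snd_inj {l : List ι} (hl : l.Nodup) {e e' : ι × ι} (he : e ∈ arcSet l)
    (he' : e' ∈ arcSet l) (h : e.2 = e'.2) : e = e' := by
  induction l with
  | nil => simp [arcSet] at he
  | cons a t ih =>
    cases t with
    | nil => simp [arcSet] at he
    | cons b t =>
      have hn := List.nodup_cons.1 hl
      have hn2 := List.nodup_cons.1 hn.2
      simp only [arcSet, Finset.mem_insert] at he he'
      rcases he with rfl | he <;> rcases he' with rfl | he'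
      · rfl
      · have h' : b = e'.2 := h
        exact absurd (by rw [h']; exact (mem_arcSet_cons he').2) hn2.1
      · have h' : e.2 = b := h
        exact absurd (by rw [← h']; exact (mem_arcSet_cons he).2) hn2.1
      · exact ih hn.2 he he'

theorem arcSet_idx {l : List ι} (hl : l.Nodup) {e : ι × ι} (he : e ∈ arcSet l) :
    l.idxOf e.1 < l.idxOf e.2 := by
  induction l with
  | nil => simp [arcSet] at he
  | cons a t ih =>
    cases t with
    | nil => simp [arcSet] at he
    | cons b t =>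
      have hn := List.nodup_cons.1 hl
      simp only [arcSet, Finset.mem_insert] at he
      rcases he with rfl | he
      · have hab : a ≠ b := by
          intro h
          exact hn.1 (h ▸ List.mem_cons_self)
        simp [List.idxOf_cons_self, List.idxOf_cons_ne _ hab]
      · have h2 := mem_arcSet_cons he
        have h3 : a ≠ e.1 := by
          intro h
          exact hn.1 (h ▸ h2.1)
        have h4 : a ≠ e.2 := by
          intro h
          exact hn.1 (h ▸ List.mem_cons_of_mem _ h2.2)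
        rw [List.idxOf_cons_ne _ h3, List.idxOf_cons_ne _ h4]
        exact Nat.succ_lt_succ (ih hn.2 he)

theorem arcSet_ne {l : List ι} (hl : l.Nodup) {e : ι × ι} (he : e ∈ arcSet l) : e.1 ≠ e.2 := by
  intro h
  have := arcSet_idx hl he
  rw [h] at this
  exact lt_irrefl _ this

end ArcSet

variable [Fintype ι]

/-- The period of the cycle through `x`. -/
noncomputable def per (F : ι → List α) (σ : Equiv.Perm ι) (x : ι) : ℕ := period F σ (orbit σ x)

/-- A natural arc: inside one cycle with overlap at least the period. -/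
def IsNatural (F : ι → List α) (σ : Equiv.Perm ι) (e : ι × ι) : Prop :=
  e.2 ∈ orbit σ e.1 ∧ per F σ e.1 ≤ ov (F e.1) (F e.2)

theorem mem_orbit_self (σ : Equiv.Perm ι) (i : ι) : i ∈ orbit σ i :=
  (mem_orbit_iff σ i i).2 ⟨0, cyc_pos σ i, by simp⟩

theorem per_eq_of_mem {x y : ι} (h : y ∈ orbit σ x) : per F σ y = per F σ x := by
  unfold per
  rw [orbit_eq_of_mem σ h]

theorem ov_le_natural (hF : SubstringFree F) (hS : Stable F σ) {e : ι × ι} (hne : e.1 ≠ e.2)
    (h : IsNatural F σ e) : ov (F e.1) (F e.2) ≤ arc F σ e.1 :=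
  natural_le hF hS hne h.1 h.2

theorem ov_le_not_natural (hF : SubstringFree F) (hS : Stable F σ) {e : ι × ι}
    (h : ¬ IsNatural F σ e) : ov (F e.1) (F e.2) ≤ per F σ e.1 + per F σ e.2 := by
  by_cases ho : e.2 ∈ orbit σ e.1
  · have h1 : ¬ per F σ e.1 ≤ ov (F e.1) (F e.2) := fun h2 => h ⟨ho, h2⟩
    omega
  · exact (cross_lt hF hS ho).le

section Count

open Classical

variable (F σ) in
/-- The natural arcs of an arc set. -/
noncomputable def natArcs (E : Finset (ι × ι)) : Finset (ι × ι) := E.filter (IsNatural F σ)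

variable (F σ) in
/-- The charge of a vertex. -/
noncomputable def charge (E : Finset (ι × ι)) (x : ι) : ℕ :=
  (if x ∈ (natArcs F σ E).image Prod.fst then arc F σ x else per F σ x)
    + (if x ∈ (natArcs F σ E).image Prod.snd then 0 else per F σ x)

/-- Charging the arcs of a path to its vertices. -/
theorem sum_ov_le_sum_charge (hF : SubstringFree F) (hS : Stable F σ) {E : Finset (ι × ι)}
    {K : Finset ι} (hK : ∀ e ∈ E, e.1 ∈ K ∧ e.2 ∈ K) (hne : ∀ e ∈ E, e.1 ≠ e.2)
    (h1 : ∀ e ∈ E, ∀ e' ∈ E, e.1 = e'.1 → e = e')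
    (h2 : ∀ e ∈ E, ∀ e' ∈ E, e.2 = e'.2 → e = e') :
    ∑ e ∈ E, ov (F e.1) (F e.2) ≤ ∑ x ∈ K, charge F σ E x := by
  set NE := natArcs F σ E with hNE
  set OE := E.filter (fun e => ¬ IsNatural F σ e) with hOE
  have hNEsub : NE ⊆ E := Finset.filter_subset _ _
  have hOEsub : OE ⊆ E := Finset.filter_subset _ _
  have hsplit : ∑ e ∈ E, ov (F e.1) (F e.2)
      = ∑ e ∈ NE, ov (F e.1) (F e.2) + ∑ e ∈ OE, ov (F e.1) (F e.2) :=
    (Finset.sum_filter_add_sum_filter_not E _ _).symm
  have hN : ∑ e ∈ NE, ov (F e.1) (F e.2) ≤ ∑ e ∈ NE, arc F σ e.1 := by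
    apply Finset.sum_le_sum
    intro e he
    exact ov_le_natural hF hS (hne e (hNEsub he)) (Finset.mem_filter.1 he).2
  have hO : ∑ e ∈ OE, ov (F e.1) (F e.2) ≤ ∑ e ∈ OE, per F σ e.1 + ∑ e ∈ OE, per F σ e.2 := by
    rw [← Finset.sum_add_distrib]
    apply Finset.sum_le_sum
    intro e he
    exact ov_le_not_natural hF hS (Finset.mem_filter.1 he).2
  have hinj1 : Set.InjOn Prod.fst (E : Set (ι × ι)) := fun e he e' he' h => h1 e he e' he' h
  have hinj2 : Set.InjOn Prod.snd (E : Set (ι × ι)) := fun e he e' he' h => h2 e he e' he' h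
  have e1 : ∑ e ∈ NE, arc F σ e.1 = ∑ x ∈ NE.image Prod.fst, arc F σ x := by
    rw [Finset.sum_image (fun a ha b hb h => hinj1 (hNEsub ha) (hNEsub hb) h)]
  have e2 : ∑ e ∈ OE, per F σ e.1 = ∑ x ∈ OE.image Prod.fst, per F σ x := by
    rw [Finset.sum_image (fun a ha b hb h => hinj1 (hOEsub ha) (hOEsub hb) h)]
  have e3 : ∑ e ∈ OE, per F σ e.2 = ∑ x ∈ OE.image Prod.snd, per F σ x := by
    rw [Finset.sum_image (fun a ha b hb h => hinj2 (hOEsub ha) (hOEsub hb) h)]
  have hsub1 : NE.image Prod.fst ⊆ K := by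
    intro x hx
    obtain ⟨e, he, rfl⟩ := Finset.mem_image.1 hx
    exact (hK e (hNEsub he)).1
  have hsub2 : OE.image Prod.fst ⊆ K \ NE.image Prod.fst := by
    intro x hx
    obtain ⟨e, he, rfl⟩ := Finset.mem_image.1 hx
    refine Finset.mem_sdiff.2 ⟨(hK e (hOEsub he)).1, ?_⟩
    intro hx'
    obtain ⟨e', he', h⟩ := Finset.mem_image.1 hx'
    have := h1 e' (hNEsub he') e (hOEsub he) h
    rw [this] at he'
    exact (Finset.mem_filter.1 he).2 (Finset.mem_filter.1 he').2
  have hsub3 : OE.image Prod.snd ⊆ K \ NE.image Prod.snd := by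
    intro x hx
    obtain ⟨e, he, rfl⟩ := Finset.mem_image.1 hx
    refine Finset.mem_sdiff.2 ⟨(hK e (hOEsub he)).2, ?_⟩
    intro hx'
    obtain ⟨e', he', h⟩ := Finset.mem_image.1 hx'
    have := h2 e' (hNEsub he') e (hOEsub he) h
    rw [this] at he'
    exact (Finset.mem_filter.1 he).2 (Finset.mem_filter.1 he').2
  have e4 : ∑ x ∈ K, (if x ∈ NE.image Prod.fst then arc F σ x else per F σ x)
      = ∑ x ∈ NE.image Prod.fst, arc F σ x + ∑ x ∈ K \ NE.image Prod.fst, per F σ x := by
    rw [Finset.sum_ite]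
    congr 1
    · apply Finset.sum_congr _ (fun _ _ => rfl)
      ext x
      simp only [Finset.mem_filter]
      exact ⟨fun h => h.2, fun h => ⟨hsub1 h, h⟩⟩
    · apply Finset.sum_congr _ (fun _ _ => rfl)
      ext x
      simp only [Finset.mem_filter, Finset.mem_sdiff]
  have e5 : ∑ x ∈ K, (if x ∈ NE.image Prod.snd then 0 else per F σ x)
      = ∑ x ∈ K \ NE.image Prod.snd, per F σ x := by
    rw [Finset.sum_ite]
    simp only [Finset.sum_const_zero, zero_add]
    apply Finset.sum_congr _ (fun _ _ => rfl)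
    ext x
    simp only [Finset.mem_filter, Finset.mem_sdiff]
  have e6 : ∑ x ∈ K, charge F σ E x
      = ∑ x ∈ K, (if x ∈ NE.image Prod.fst then arc F σ x else per F σ x)
        + ∑ x ∈ K, (if x ∈ NE.image Prod.snd then 0 else per F σ x) := by
    rw [← Finset.sum_add_distrib]
    rfl
  have l2 := Finset.sum_le_sum_of_subset (f := per F σ) hsub2
  have l3 := Finset.sum_le_sum_of_subset (f := per F σ) hsub3
  rw [hsplit, e6, e4, e5]
  rw [e1] at hN
  rw [e2, e3] at hO
  omega

/-- The arithmetic of a kept cycle. -/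
theorem kept_arith {SA arcS a p r k : ℕ} (h1 : SA + r * a ≤ arcS) (hr1 : 1 ≤ r) (hrk : r ≤ k)
    (hk : ¬ (a - p ≤ (k - 1) * (2 * p - a))) :
    SA + r * p + r * p ≤ (arcS - a) + 2 * p + min (a - p) ((k - 1) * (2 * p - a)) := by
  have hmin : min (a - p) ((k - 1) * (2 * p - a)) = (k - 1) * (2 * p - a) :=
    min_eq_right (by omega)
  rw [hmin]
  obtain ⟨r', rfl⟩ : ∃ r', r = r' + 1 := ⟨r - 1, by omega⟩
  have hak : a ≤ arcS := by nlinarith
  rcases le_total a (2 * p) with h | h
  · obtain ⟨d, hd⟩ : ∃ d, 2 * p = a + d := ⟨2 * p - a, by omega⟩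
    have e1 : 2 * p - a = d := by omega
    rw [e1]
    have e2 : (r' + 1) * p + (r' + 1) * p = (r' + 1) * (a + d) := by
      rw [← hd]; ring
    have e3 : r' * d ≤ (k - 1) * d := Nat.mul_le_mul_right d (by omega)
    have e4 : (r' + 1) * (a + d) = (r' + 1) * a + r' * d + d := by ring
    omega
  · have e1 : 2 * p - a = 0 := by omega
    rw [e1, Nat.mul_zero]
    obtain ⟨d, hd⟩ : ∃ d, a = 2 * p + d := ⟨a - 2 * p, by omega⟩
    have e2 : (r' + 1) * a = (r' + 1) * p + (r' + 1) * p + (r' * d + d) := by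
      rw [hd]; ring
    omega

/-- The charge of a whole kept cycle is within its budget. -/
theorem sum_charge_orbit_le {E : Finset (ι × ι)}
    (h1 : ∀ e ∈ E, ∀ e' ∈ E, e.1 = e'.1 → e = e')
    (h2 : ∀ e ∈ E, ∀ e' ∈ E, e.2 = e'.2 → e = e')
    {pos : ι → ℕ} (hpos : ∀ e ∈ E, pos e.1 < pos e.2) (i : ι)
    (hk : ¬ (minArc F σ (orbit σ i) - period F σ (orbit σ i)
      ≤ ((orbit σ i).card - 1) * (2 * period F σ (orbit σ i) - minArc F σ (orbit σ i)))) :
    ∑ x ∈ orbit σ i, charge F σ E x ≤ budget F σ (orbit σ i) := by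
  set C := orbit σ i with hC
  set NE := natArcs F σ E with hNE
  have hNEsub : NE ⊆ E := Finset.filter_subset _ _
  have hNat : ∀ e ∈ NE, IsNatural F σ e := fun e he => (Finset.mem_filter.1 he).2
  have hC1 : ∀ e ∈ NE, (e.1 ∈ C ↔ e.2 ∈ C) := by
    intro e he
    have h3 := (hNat e he).1
    have h4 := orbit_eq_of_mem σ h3
    constructor
    · intro h
      have h5 := orbit_eq_of_mem σ h
      rw [hC, ← h5]
      exact h3
    · intro h
      have h5 := orbit_eq_of_mem σ h
      rw [hC, ← h5, h4]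
      exact mem_orbit_self σ _
  set NC := NE.filter (fun e => e.1 ∈ C) with hNC
  have hA : C.filter (fun x => x ∈ NE.image Prod.fst) = NC.image Prod.fst := by
    ext x
    simp only [Finset.mem_filter, Finset.mem_image, hNC]
    constructor
    · rintro ⟨hx, e, he, rfl⟩
      exact ⟨e, ⟨he, hx⟩, rfl⟩
    · rintro ⟨e, ⟨he, hx⟩, rfl⟩
      exact ⟨hx, e, he, rfl⟩
  have hB : C.filter (fun x => x ∈ NE.image Prod.snd) = NC.image Prod.snd := by
    ext x
    simp only [Finset.mem_filter, Finset.mem_image, hNC]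
    constructor
    · rintro ⟨hx, e, he, rfl⟩
      exact ⟨e, ⟨he, (hC1 e he).2 hx⟩, rfl⟩
    · rintro ⟨e, ⟨he, hx⟩, rfl⟩
      exact ⟨(hC1 e he).1 hx, e, he, rfl⟩
  have hNCsub : NC ⊆ E := (Finset.filter_subset _ _).trans hNEsub
  have hcA : (C.filter (fun x => x ∈ NE.image Prod.fst)).card = NC.card := by
    rw [hA]
    exact Finset.card_image_of_injOn (fun a ha b hb h => h1 a (hNCsub ha) b (hNCsub hb) h)
  have hcB : (C.filter (fun x => x ∈ NE.image Prod.snd)).card = NC.card := by
    rw [hB]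
    exact Finset.card_image_of_injOn (fun a ha b hb h => h2 a (hNCsub ha) b (hNCsub hb) h)
  have hperC : ∀ x ∈ C, per F σ x = period F σ C := by
    intro x hx
    unfold per
    rw [orbit_eq_of_mem σ hx]
  set p := period F σ C with hp
  set a := minArc F σ C with ha
  set k := C.card with hkdef
  set n := NC.card with hn
  have hcA' : (C.filter (fun x => ¬ x ∈ NE.image Prod.fst)).card = k - n := by
    have := Finset.card_filter_add_card_filter_not (s := C) (fun x => x ∈ NE.image Prod.fst)
    omega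
  have hcB' : (C.filter (fun x => ¬ x ∈ NE.image Prod.snd)).card = k - n := by
    have := Finset.card_filter_add_card_filter_not (s := C) (fun x => x ∈ NE.image Prod.snd)
    omega
  have hCne : C.Nonempty := ⟨i, mem_orbit_self σ i⟩
  have hr1 : 1 ≤ k - n := by
    obtain ⟨x, hx, hmax⟩ := Finset.exists_max_image C pos hCne
    rw [← hcA', Nat.succ_le_iff, Finset.card_pos]
    refine ⟨x, Finset.mem_filter.2 ⟨hx, ?_⟩⟩
    intro hxT
    obtain ⟨e, he, rfl⟩ := Finset.mem_image.1 hxT
    have h3 := (hC1 e he).1 hx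
    have h4 := hmax e.2 h3
    have h5 := hpos e (hNEsub he)
    omega
  have hnk : k - n ≤ k := Nat.sub_le _ _
  have hsum1 : ∑ x ∈ C, (if x ∈ NE.image Prod.fst then arc F σ x else per F σ x)
      = ∑ x ∈ C.filter (fun x => x ∈ NE.image Prod.fst), arc F σ x + (k - n) * p := by
    rw [Finset.sum_ite]
    congr 1
    rw [Finset.sum_congr rfl (fun x hx => hperC x (Finset.mem_filter.1 hx).1), Finset.sum_const,
      hcA', smul_eq_mul]
  have hsum2 : ∑ x ∈ C, (if x ∈ NE.image Prod.snd then 0 else per F σ x) = (k - n) * p := by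
    rw [Finset.sum_ite]
    simp only [Finset.sum_const_zero, zero_add]
    rw [Finset.sum_congr rfl (fun x hx => hperC x (Finset.mem_filter.1 hx).1), Finset.sum_const,
      hcB', smul_eq_mul]
  have hsum3 : ∑ x ∈ C, charge F σ E x
      = ∑ x ∈ C, (if x ∈ NE.image Prod.fst then arc F σ x else per F σ x)
        + ∑ x ∈ C, (if x ∈ NE.image Prod.snd then 0 else per F σ x) := by
    rw [← Finset.sum_add_distrib]
    rfl
  have hminle : ∀ x ∈ C, a ≤ arc F σ x := by
    intro x hx
    exact Nat.sInf_le ⟨x, hx, rfl⟩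
  have hSA : ∑ x ∈ C.filter (fun x => x ∈ NE.image Prod.fst), arc F σ x + (k - n) * a
      ≤ arcSum F σ C := by
    rw [arcSum, ← Finset.sum_filter_add_sum_filter_not C (fun x => x ∈ NE.image Prod.fst)]
    apply Nat.add_le_add_left
    rw [← hcA', ← smul_eq_mul]
    exact Finset.card_nsmul_le_sum _ _ _ (fun x hx => hminle x (Finset.mem_filter.1 hx).1)
  rw [hsum3, hsum1, hsum2, add_assoc]
  unfold budget
  rw [← hp, ← ha, ← add_assoc]
  exact kept_arith hSA hr1 hnk hk

/-- Summing over a set of orbits. -/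
theorem sum_filter_orbit (D : Finset (Finset ι)) (f : ι → ℕ)
    (hD : ∀ C ∈ D, ∃ i, C = orbit σ i) :
    ∑ x ∈ Finset.univ.filter (fun x => orbit σ x ∈ D), f x = ∑ C ∈ D, ∑ x ∈ C, f x := by
  rw [← Finset.sum_fiberwise_of_maps_to (s := Finset.univ.filter (fun x => orbit σ x ∈ D)) (t := D)
    (g := orbit σ) (fun x hx => (Finset.mem_filter.1 hx).2)]
  apply Finset.sum_congr rfl
  intro C hC
  apply Finset.sum_congr _ (fun _ _ => rfl)
  obtain ⟨i, rfl⟩ := hD C hC
  ext x
  simp only [Finset.mem_filter, Finset.mem_univ, true_and]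
  constructor
  · rintro ⟨_, h⟩
    rw [← h]
    exact mem_orbit_self σ x
  · intro h
    have := orbit_eq_of_mem σ h
    exact ⟨by rw [this]; exact hC, this⟩

/-- The lengths of a cycle. -/
theorem sum_length_orbit (hF : SubstringFree F) (C : Finset ι) :
    ∑ x ∈ C, (F x).length = arcSum F σ C + period F σ C := by
  rw [arcSum, period, ← Finset.sum_add_distrib]
  exact Finset.sum_congr rfl (fun x _ => length_eq hF x)

/-- A deleted cycle stays within its budget. -/
theorem deleted_le (hF : SubstringFree F) (i : ι)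
    (hk : minArc F σ (orbit σ i) - period F σ (orbit σ i)
      ≤ ((orbit σ i).card - 1) * (2 * period F σ (orbit σ i) - minArc F σ (orbit σ i))) :
    ∑ x ∈ orbit σ i, (F x).length ≤ budget F σ (orbit σ i) := by
  rw [sum_length_orbit (σ := σ) hF]
  unfold budget
  rw [min_eq_left hk]
  have h1 : minArc F σ (orbit σ i) ≤ arc F σ i := Nat.sInf_le ⟨i, mem_orbit_self σ i, rfl⟩
  have h2 : arc F σ i ≤ arcSum F σ (orbit σ i) :=
    Finset.single_le_sum (f := arc F σ) (fun _ _ => Nat.zero_le _) (mem_orbit_self σ i)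
  omega

/-- The per-cycle inequality: for every Hamiltonian path `T`, the total overlap of `T` is at most
the sum of the budgets of the cycles of a stable cover. -/
theorem per_cycle_main (hF : SubstringFree F) (hS : Stable F σ) (T : List ι) (hnd : T.Nodup)
    (hall : ∀ i, i ∈ T) : pathOv F T ≤ ∑ C ∈ orbits σ, budget F σ C := by
  set keep : Finset ι → Prop := fun C => ¬ (minArc F σ C - period F σ C
      ≤ (C.card - 1) * (2 * period F σ C - minArc F σ C)) with hkeep
  set S := (orbits σ).filter keep with hS'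
  set S' := (orbits σ).filter (fun C => ¬ keep C) with hS''
  have hmemorb : ∀ x, orbit σ x ∈ orbits σ := fun x =>
    Finset.mem_image.2 ⟨x, Finset.mem_univ _, rfl⟩
  have horb : ∀ C ∈ orbits σ, ∃ i, C = orbit σ i := by
    intro C hC
    obtain ⟨i, -, rfl⟩ := Finset.mem_image.1 hC
    exact ⟨i, rfl⟩
  set kp : ι → Bool := fun x => decide (keep (orbit σ x)) with hkp
  set T' := T.filter kp with hT'
  have hT'nd : T'.Nodup := hnd.filter _
  have h0 : pathOv F T ≤ pathOv F T' + lenSum F (T.filter (fun i => !kp i)) :=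
    pathOv_filter_le hF kp T
  -- the kept part
  set E := arcSet T' with hE
  have h1 : pathOv F T' = ∑ e ∈ E, ov (F e.1) (F e.2) := pathOv_eq_sum hT'nd
  set K := Finset.univ.filter (fun x => orbit σ x ∈ S) with hK
  have hmemT' : ∀ x, x ∈ T' → x ∈ K := by
    intro x hx
    have h2 := (List.mem_filter.1 hx).2
    refine Finset.mem_filter.2 ⟨Finset.mem_univ _, Finset.mem_filter.2 ⟨hmemorb x, ?_⟩⟩
    simpa [hkp] using h2
  have h2 : ∑ e ∈ E, ov (F e.1) (F e.2) ≤ ∑ x ∈ K, charge F σ E x :=
    sum_ov_le_sum_charge hF hS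
      (fun e he => ⟨hmemT' _ (mem_arcSet he).1, hmemT' _ (mem_arcSet he).2⟩)
      (fun e he => arcSet_ne hT'nd he)
      (fun e he e' he' h => arcSet_fst_inj hT'nd he he' h)
      (fun e he e' he' h => arcSet_snd_inj hT'nd he he' h)
  have h3 : ∑ x ∈ K, charge F σ E x = ∑ C ∈ S, ∑ x ∈ C, charge F σ E x :=
    sum_filter_orbit S _ (fun C hC => horb C (Finset.mem_filter.1 hC).1)
  have h4 : ∑ C ∈ S, ∑ x ∈ C, charge F σ E x ≤ ∑ C ∈ S, budget F σ C := by
    apply Finset.sum_le_sum
    intro C hC
    obtain ⟨hC1, hC2⟩ := Finset.mem_filter.1 hC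
    obtain ⟨i, rfl⟩ := horb C hC1
    exact sum_charge_orbit_le (pos := fun x => T'.idxOf x)
      (fun e he e' he' h => arcSet_fst_inj hT'nd he he' h)
      (fun e he e' he' h => arcSet_snd_inj hT'nd he he' h)
      (fun e he => arcSet_idx hT'nd he) i hC2
  -- the deleted part
  set K' := Finset.univ.filter (fun x => orbit σ x ∈ S') with hK'
  have h5 : lenSum F (T.filter (fun i => !kp i)) = ∑ x ∈ K', (F x).length := by
    have hnd' : (T.filter (fun i => !kp i)).Nodup := hnd.filter _
    have e : K' = (T.filter (fun i => !kp i)).toFinset := by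
      ext x
      simp only [hK', hS'', Finset.mem_filter, Finset.mem_univ, true_and, List.mem_toFinset,
        List.mem_filter, hkp]
      constructor
      · rintro ⟨-, h⟩
        exact ⟨hall x, by simpa using h⟩
      · rintro ⟨-, h⟩
        exact ⟨hmemorb x, by simpa using h⟩
    rw [e, List.sum_toFinset _ hnd']
    rfl
  have h6 : ∑ x ∈ K', (F x).length = ∑ C ∈ S', ∑ x ∈ C, (F x).length :=
    sum_filter_orbit S' _ (fun C hC => horb C (Finset.mem_filter.1 hC).1)
  have h7 : ∑ C ∈ S', ∑ x ∈ C, (F x).length ≤ ∑ C ∈ S', budget F σ C := by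
    apply Finset.sum_le_sum
    intro C hC
    obtain ⟨hC1, hC2⟩ := Finset.mem_filter.1 hC
    obtain ⟨i, rfl⟩ := horb C hC1
    exact deleted_le hF i (not_not.1 hC2)
  have h8 : ∑ C ∈ S, budget F σ C + ∑ C ∈ S', budget F σ C = ∑ C ∈ orbits σ, budget F σ C :=
    Finset.sum_filter_add_sum_filter_not _ _ _
  omega

end Count

end P333
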