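import Mathlib

/-!
Strings, overlaps, stable cycle covers and Hamiltonian paths for the shortest superstring problem.
-/

namespace P333

variable {α ι : Type*}

/-- `l` is a proper overlap length of `x` and `y`: the suffix of `x` of length `l` equals the
initial segment of `y` of length `l`, and `l` is smaller than both lengths. -/
def IsOverlap (x y : List α) (l : ℕ) : Prop :=
  l < x.length ∧ l < y.length ∧ x.drop (x.length - l) = y.take l

open Classical in
/-- The maximal overlap `ov(x,y)` (the largest proper overlap length). -/
noncomputable def ov (x y : List α) : ℕ :=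
  Nat.findGreatest (IsOverlap x y) (x.length + y.length)

/-- A substring-free family of nonempty strings. -/
structure SubstringFree (F : ι → List α) : Prop where
  ne_nil : ∀ i, F i ≠ []
  not_infix : ∀ i j, i ≠ j → ¬ (F i <:+: F j)

/-- The overlap `w_i` on the arc `i → σ i` of the cycle cover `σ`. -/
noncomputable def arc (F : ι → List α) (σ : Equiv.Perm ι) (i : ι) : ℕ := ov (F i) (F (σ i))

/-- Stability of a cycle cover, the property of the greedy cycle cover (MGREEDY): no arc has
overlap larger than both the cover arc leaving its tail and the cover arc entering its head. -/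
def Stable (F : ι → List α) (σ : Equiv.Perm ι) : Prop :=
  ∀ i j, ov (F i) (F j) ≤ max (arc F σ i) (arc F σ (σ.symm j))

/-- The step `d_i = |s_i| - w_i` of the arc leaving `i`. -/
noncomputable def step (F : ι → List α) (σ : Equiv.Perm ι) (i : ι) : ℕ :=
  (F i).length - arc F σ i

open Classical in
/-- The vertex set of the cycle of `σ` through `i`. -/
noncomputable def orbit [Fintype ι] (σ : Equiv.Perm ι) (i : ι) : Finset ι :=
  Finset.univ.filter (fun j => σ.SameCycle i j)

open Classical in
/-- The set of all cycles of `σ`, as vertex sets. -/
noncomputable def orbits [Fintype ι] (σ : Equiv.Perm ι) : Finset (Finset ι) :=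
  Finset.univ.image (orbit σ)

/-- The period `p_C` of a cycle: the sum of its steps. -/
noncomputable def period (F : ι → List α) (σ : Equiv.Perm ι) (C : Finset ι) : ℕ :=
  ∑ i ∈ C, step F σ i

/-- The total overlap `ov(B_C)` of the cycle. -/
noncomputable def arcSum (F : ι → List α) (σ : Equiv.Perm ι) (C : Finset ι) : ℕ :=
  ∑ i ∈ C, arc F σ i

/-- The closure overlap `a_C`: the smallest arc overlap of the cycle. -/
noncomputable def minArc (F : ι → List α) (σ : Equiv.Perm ι) (C : Finset ι) : ℕ :=
  sInf (arc F σ '' (C : Set ι))

/-- The budget of a cycle: `ov(P_C) + 2 p_C + min((a_C - p_C)^+, (k_C - 1)(2 p_C - a_C)^+)`, where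
`ov(P_C) = ov(B_C) - a_C` (truncated subtraction on `ℕ` gives the positive parts). -/
noncomputable def budget (F : ι → List α) (σ : Equiv.Perm ι) (C : Finset ι) : ℕ :=
  (arcSum F σ C - minArc F σ C) + 2 * period F σ C
    + min (minArc F σ C - period F σ C) ((C.card - 1) * (2 * period F σ C - minArc F σ C))

/-- The total overlap of a path, given as a list of indices. -/
noncomputable def pathOv (F : ι → List α) : List ι → ℕ
  | a :: b :: t => ov (F a) (F b) + pathOv F (b :: t)
  | _ => 0

end P333
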