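import Vale.Agent.Lib.P333.Prim

namespace P333

variable {α ι : Type*}
variable {F : ι → List α}

/-- Total length of the listed strings. -/
def lenSum (F : ι → List α) (l : List ι) : ℕ := (l.map (fun i => (F i).length)).sum

theorem ov_lt_left (hF : SubstringFree F) (a b : ι) : ov (F a) (F b) < (F a).length :=
  (isOverlap_ov (hF.ne_nil a) (hF.ne_nil b)).1

theorem ov_lt_right (hF : SubstringFree F) (a b : ι) : ov (F a) (F b) < (F b).length :=
  (isOverlap_ov (hF.ne_nil a) (hF.ne_nil b)).2.1

/-- Deleting strings from the tail of a path with a kept head. -/
theorem pathOv_cons_filter_le (hF : SubstringFree F) (p : ι → Bool) :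
    ∀ (n : ℕ) (t : List ι), t.length = n → ∀ a : ι,
      pathOv F (a :: t) ≤ pathOv F (a :: t.filter p) + lenSum F (t.filter (fun i => !p i)) := by
  intro n
  induction n using Nat.strong_induction_on with
  | _ n ih =>
    intro t ht a
    cases t with
    | nil => simp [pathOv, lenSum]
    | cons b t' =>
      simp only [List.length_cons] at ht
      by_cases hb : p b = true
      · have h1 := ih t'.length (by omega) t' rfl b
        simp only [List.filter_cons, hb, if_true, Bool.not_true, if_false, Bool.false_eq_true,
          pathOv]
        omega
      · have hb' : p b = false := by simpa using hb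
        cases t' with
        | nil =>
          have := ov_lt_right hF a b
          simp [pathOv, hb', lenSum]
          omega
        | cons c t'' =>
          have h1 := ih (c :: t'').length (by simp at ht ⊢; omega) (c :: t'') rfl a
          have h2 := ov_add_ov_le (hF.ne_nil a) (hF.ne_nil b) (hF.ne_nil c)
          have e1 : pathOv F (a :: b :: c :: t'') = ov (F a) (F b) + (ov (F b) (F c) + pathOv F (c :: t'')) := rfl
          have e2 : pathOv F (a :: c :: t'') = ov (F a) (F c) + pathOv F (c :: t'') := rfl
          have e3 : (b :: c :: t'').filter p = (c :: t'').filter p := by
            rw [List.filter_cons, if_neg hb]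
          have e4 : lenSum F ((b :: c :: t'').filter (fun i => !p i))
              = (F b).length + lenSum F ((c :: t'').filter (fun i => !p i)) := by
            rw [List.filter_cons, if_pos (by simpa using hb')]
            simp [lenSum]
          rw [e3, e4]
          omega

/-- Deleting strings from a path costs at most their lengths. -/
theorem pathOv_filter_le (hF : SubstringFree F) (p : ι → Bool) (l : List ι) :
    pathOv F l ≤ pathOv F (l.filter p) + lenSum F (l.filter (fun i => !p i)) := by
  induction l with
  | nil => simp [pathOv, lenSum]
  | cons a t ih =>
    by_cases ha : p a = true
    · have := pathOv_cons_filter_le hF p t.length t rfl a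
      simpa [List.filter_cons, ha] using this
    · have ha' : p a = false := by simpa using ha
      have e3 : (a :: t).filter p = t.filter p := by
        rw [List.filter_cons, if_neg ha]
      have e4 : lenSum F ((a :: t).filter (fun i => !p i))
          = (F a).length + lenSum F (t.filter (fun i => !p i)) := by
        rw [List.filter_cons, if_pos (by simpa using ha')]
        simp [lenSum]
      rw [e3, e4]
      cases t with
      | nil => simp [pathOv]
      | cons b t' =>
        have e1 : pathOv F (a :: b :: t') = ov (F a) (F b) + pathOv F (b :: t') := rfl
        have := ov_lt_left hF a b
        rw [e1]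
        omega

end P333
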