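import Vale.Agent.Lib.P333.Acc

namespace P333

variable {α ι : Type*} [Fintype ι]
variable {F : ι → List α} {σ : Equiv.Perm ι}

/-- The per-cycle inequality: for every Hamiltonian path `T`, the total overlap of `T` is at most
the sum of the budgets of the cycles of a stable cover. -/
theorem per_cycle (hF : SubstringFree F) (hS : Stable F σ) (T : List ι) (hnd : T.Nodup)
    (hall : ∀ i, i ∈ T) : pathOv F T ≤ ∑ C ∈ orbits σ, budget F σ C :=
  per_cycle_main hF hS T hnd hall

/-- Stable covers exist for every family: any maximizer of `∑ 3 ^ ov(i, σ i)` is stable. -/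
theorem exists_stable (F : ι → List α) : ∃ σ : Equiv.Perm ι, Stable F σ := by
  classical
  obtain ⟨σ, hσ⟩ := Finite.exists_max
    (fun σ : Equiv.Perm ι => ∑ i, 3 ^ ov (F i) (F (σ i)))
  refine ⟨σ, ?_⟩
  intro x y
  by_contra hlt
  rw [not_le] at hlt
  set u := σ.symm y with hu
  have hσu : σ u = y := by simp [hu]
  have h1 : arc F σ x < ov (F x) (F y) := lt_of_le_of_lt (le_max_left _ _) hlt
  have h2 : arc F σ u < ov (F x) (F y) := lt_of_le_of_lt (le_max_right _ _) hlt
  have hxu : x ≠ u := by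
    intro h
    rw [← h] at hσu
    have : arc F σ x = ov (F x) (F y) := by
      unfold arc
      rw [hσu]
    omega
  have hσxy : σ x ≠ y := by
    intro h
    apply hxu
    rw [hu, ← h]
    simp
  let σ' : Equiv.Perm ι := σ.trans (Equiv.swap (σ x) y)
  have hx' : σ' x = y := by
    simp [σ']
  have hu' : σ' u = σ x := by
    simp [σ', hσu]
  have ho' : ∀ i, i ≠ x → i ≠ u → σ' i = σ i := by
    intro i hix hiu
    have h1 : σ i ≠ σ x := fun h => hix (σ.injective h)
    have h2 : σ i ≠ y := fun h => hiu (by rw [hu, ← h]; simp)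
    simp [σ', Equiv.swap_apply_of_ne_of_ne h1 h2]
  have hmax := hσ σ'
  -- split the sums
  have hsplit : ∀ g : ι → ℕ, ∑ i, g i = g x + (g u + ∑ i ∈ (Finset.univ.erase x).erase u, g i) := by
    intro g
    rw [Finset.add_sum_erase _ g (by simp [hxu.symm]), Finset.add_sum_erase _ g (Finset.mem_univ x)]
  have hrest : ∑ i ∈ (Finset.univ.erase x).erase u, 3 ^ ov (F i) (F (σ' i)) =
      ∑ i ∈ (Finset.univ.erase x).erase u, 3 ^ ov (F i) (F (σ i)) := by
    apply Finset.sum_congr rfl
    intro i hi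
    simp only [Finset.mem_erase, Finset.mem_univ, and_true] at hi
    rw [ho' i hi.2 hi.1]
  rw [hsplit (fun i => 3 ^ ov (F i) (F (σ' i))), hsplit (fun i => 3 ^ ov (F i) (F (σ i))), hrest,
    hx', hu', hσu] at hmax
  have ax : ov (F x) (F (σ x)) = arc F σ x := rfl
  have au : ov (F u) (F y) = arc F σ u := by
    unfold arc
    rw [hσu]
  rw [ax, au] at hmax
  obtain ⟨o, ho⟩ : ∃ o, ov (F x) (F y) = o + 1 := ⟨ov (F x) (F y) - 1, by omega⟩
  rw [ho] at hmax h1 h2
  have p1 : 3 ^ arc F σ x ≤ 3 ^ o := Nat.pow_le_pow_right (by norm_num) (by omega)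
  have p2 : 3 ^ arc F σ u ≤ 3 ^ o := Nat.pow_le_pow_right (by norm_num) (by omega)
  have p3 : 0 < 3 ^ ov (F u) (F (σ x)) := by positivity
  have p4 : 3 ^ (o + 1) = 3 * 3 ^ o := by ring
  have p5 : 0 < 3 ^ o := by positivity
  omega

end P333
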