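import Vale.Agent.Lib.P333.Occ

namespace P333

variable {α ι : Type*}

/-- The periodic line of the cycle through `i`: position `n` counted from the start of `F i`. -/
noncomputable def line (F : ι → List α) (σ : Equiv.Perm ι) (i : ι) (n : ℕ) : Option α :=
  if h : n < step F σ i ∨ step F σ i = 0 then (F i)[n]?
  else line F σ (σ i) (n - step F σ i)
termination_by n
decreasing_by
  have := h
  omega

/-- Partial sums of steps along the cycle through `i`. -/
noncomputable def partSum (F : ι → List α) (σ : Equiv.Perm ι) (i : ι) (m : ℕ) : ℕ :=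
  ∑ t ∈ Finset.range m, step F σ ((σ ^ t) i)

variable {F : ι → List α} {σ : Equiv.Perm ι}

theorem line_of_lt (i : ι) {n : ℕ} (h : n < step F σ i) : line F σ i n = (F i)[n]? := by
  rw [line]
  exact dif_pos (Or.inl h)

theorem line_of_ge (hF : SubstringFree F) (i : ι) {n : ℕ} (h : step F σ i ≤ n) :
    line F σ i n = line F σ (σ i) (n - step F σ i) := by
  rw [line]
  have h0 := step_pos (σ := σ) hF i
  exact dif_neg (by omega)

theorem line_letters (hF : SubstringFree F) (i : ι) {q : ℕ} (hq : q < (F i).length) :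
    line F σ i q = (F i)[q]? := by
  induction q using Nat.strong_induction_on generalizing i with
  | _ q ih =>
    by_cases h : q < step F σ i
    · exact line_of_lt i h
    · push Not at h
      have h0 := step_pos (σ := σ) hF i
      have h1 := length_eq (σ := σ) hF i
      have h2 := arc_lt_right (σ := σ) hF i
      rw [line_of_ge hF i h, ih (q - step F σ i) (by omega) (σ i) (by omega),
        step_letters hF i h hq]

theorem line_step (hF : SubstringFree F) (i : ι) (n : ℕ) :
    line F σ i (step F σ i + n) = line F σ (σ i) n := by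
  rw [line_of_ge hF i (by omega)]
  congr 1
  omega

theorem partSum_zero (i : ι) : partSum F σ i 0 = 0 := by
  simp [partSum]

theorem partSum_succ (i : ι) (m : ℕ) :
    partSum F σ i (m + 1) = partSum F σ i m + step F σ ((σ ^ m) i) := by
  simp [partSum, Finset.sum_range_succ]

theorem line_add_partSum (hF : SubstringFree F) (i : ι) (m n : ℕ) :
    line F σ i (partSum F σ i m + n) = line F σ ((σ ^ m) i) n := by
  induction m generalizing n with
  | zero => simp [partSum_zero]
  | succ m ih =>
    rw [partSum_succ, add_assoc, ih, line_step hF, pow_succ' σ m, Equiv.Perm.mul_apply]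

theorem partSum_strictMono (hF : SubstringFree F) (i : ι) : StrictMono (partSum F σ i) := by
  apply strictMono_nat_of_lt_succ
  intro m
  rw [partSum_succ]
  have := step_pos (σ := σ) hF ((σ ^ m) i)
  omega

variable [Fintype ι]

/-- The length of the cycle through `i`. -/
noncomputable def cyc (σ : Equiv.Perm ι) (i : ι) : ℕ := Function.minimalPeriod σ i

theorem isPeriodicPt (σ : Equiv.Perm ι) (i : ι) : i ∈ Function.periodicPts σ := by
  classical
  have : Function.Injective σ := σ.injective
  have h := this.mem_periodicPts (x := i)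
  exact h

theorem cyc_pos (σ : Equiv.Perm ι) (i : ι) : 0 < cyc σ i :=
  Function.minimalPeriod_pos_of_mem_periodicPts (isPeriodicPt σ i)

theorem coe_pow_apply (σ : Equiv.Perm ι) (m : ℕ) (i : ι) : (σ ^ m) i = (σ : ι → ι)^[m] i := by
  rw [Equiv.Perm.iterate_eq_pow]

theorem pow_cyc (σ : Equiv.Perm ι) (i : ι) : (σ ^ cyc σ i) i = i := by
  rw [coe_pow_apply]
  exact Function.iterate_minimalPeriod

theorem pow_ne_of_lt (σ : Equiv.Perm ι) (i : ι) {t : ℕ} (h0 : 0 < t) (h1 : t < cyc σ i) :
    (σ ^ t) i ≠ i := by
  rw [coe_pow_apply]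
  intro h
  have := Function.IsPeriodicPt.minimalPeriod_le h0 h
  unfold cyc at h1
  omega

theorem pow_add_cyc (σ : Equiv.Perm ι) (i : ι) (m : ℕ) : (σ ^ (m + cyc σ i)) i = (σ ^ m) i := by
  rw [pow_add, Equiv.Perm.mul_apply, pow_cyc]

theorem pow_mod_cyc (σ : Equiv.Perm ι) (i : ι) (m : ℕ) : (σ ^ (m % cyc σ i)) i = (σ ^ m) i := by
  rw [coe_pow_apply, coe_pow_apply]
  exact Function.iterate_mod_minimalPeriod_eq

theorem mem_orbit_iff (σ : Equiv.Perm ι) (i j : ι) :
    j ∈ orbit σ i ↔ ∃ m, m < cyc σ i ∧ (σ ^ m) i = j := by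
  classical
  simp only [orbit, Finset.mem_filter, Finset.mem_univ, true_and]
  constructor
  · intro h
    obtain ⟨m, hm⟩ := h.exists_nat_pow_eq
    refine ⟨m % cyc σ i, Nat.mod_lt _ (cyc_pos σ i), ?_⟩
    rw [pow_mod_cyc, hm]
  · rintro ⟨m, -, rfl⟩
    exact ⟨m, by simp⟩

theorem orbit_eq_of_mem (σ : Equiv.Perm ι) {i j : ι} (h : j ∈ orbit σ i) :
    orbit σ j = orbit σ i := by
  classical
  simp only [orbit, Finset.mem_filter, Finset.mem_univ, true_and] at h ⊢
  ext k
  simp only [Finset.mem_filter, Finset.mem_univ, true_and]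
  exact ⟨fun hk => h.trans hk, fun hk => h.symm.trans hk⟩

theorem pow_injOn (σ : Equiv.Perm ι) (i : ι) :
    Set.InjOn (fun m => (σ ^ m) i) (Finset.range (cyc σ i) : Set ℕ) := by
  intro a ha b hb hab
  simp only [Finset.coe_range, Set.mem_Iio] at ha hb
  simp only [coe_pow_apply] at hab
  exact (Function.iterate_eq_iterate_iff_of_lt_minimalPeriod ha hb).1 hab

theorem orbit_eq_image (σ : Equiv.Perm ι) (i : ι) [DecidableEq ι] :
    orbit σ i = (Finset.range (cyc σ i)).image (fun m => (σ ^ m) i) := by
  ext j
  rw [mem_orbit_iff]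
  simp [Finset.mem_image]

theorem sum_orbit (σ : Equiv.Perm ι) (i : ι) (f : ι → ℕ) :
    ∑ j ∈ orbit σ i, f j = ∑ t ∈ Finset.range (cyc σ i), f ((σ ^ t) i) := by
  classical
  rw [orbit_eq_image, Finset.sum_image (pow_injOn σ i)]

/-- The period of the cycle through `i` as a partial sum. -/
theorem partSum_cyc (i : ι) : partSum F σ i (cyc σ i) = period F σ (orbit σ i) := by
  rw [period, sum_orbit]
  rfl

theorem partSum_add_cyc (i : ι) (m : ℕ) :
    partSum F σ i (m + cyc σ i) = partSum F σ i m + period F σ (orbit σ i) := by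
  induction m with
  | zero => simp [partSum_zero, partSum_cyc]
  | succ m ih =>
    rw [show m + 1 + cyc σ i = (m + cyc σ i) + 1 by ring, partSum_succ, ih, partSum_succ,
      pow_add_cyc]
    ring

theorem period_pos (hF : SubstringFree F) (i : ι) : 0 < period F σ (orbit σ i) := by
  rw [← partSum_cyc]
  have := partSum_strictMono (σ := σ) hF i (cyc_pos σ i)
  rw [partSum_zero] at this
  exact this

theorem line_periodic (hF : SubstringFree F) (i : ι) (n : ℕ) :
    line F σ i (n + period F σ (orbit σ i)) = line F σ i n := by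
  rw [add_comm, ← partSum_cyc, line_add_partSum hF, pow_cyc]

end P333
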