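import Vale.Agent.Lib.P333.Str

namespace P333

variable {α ι : Type*}

/-- A system of marked occurrences of strings on a line `W` with period `g`: closed under
shifting by `g` and under passing to the predecessor in the cover at distance its step. -/
structure OccSys (F : ι → List α) (σ : Equiv.Perm ι) (W : ℕ → Option α) (O : ι → ℕ → Prop)
    (g : ℕ) : Prop where
  g_pos : 0 < g
  letters : ∀ s n, O s n → ∀ q, q < (F s).length → W (n + q) = (F s)[q]?
  shift : ∀ s n, O s n → O s (n + g)
  prev : ∀ v n, O v n → step F σ (σ.symm v) ≤ n → O (σ.symm v) (n - step F σ (σ.symm v))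

variable {F : ι → List α} {σ : Equiv.Perm ι} {W : ℕ → Option α} {O : ι → ℕ → Prop} {g : ℕ}

theorem OccSys.shift_mul (hO : OccSys F σ W O g) {s : ι} {n : ℕ} (h : O s n) (k : ℕ) :
    O s (n + g * k) := by
  induction k with
  | zero => simpa using h
  | succ k ih =>
    have h1 := hO.shift _ _ ih
    rwa [show n + g * k + g = n + g * (k + 1) by ring] at h1

/-- Two marked occurrences at the same position are occurrences of the same string. -/
theorem OccSys.same_start (hF : SubstringFree F) (hO : OccSys F σ W O g) {a b : ι} {n : ℕ}
    (ha : O a n) (hb : O b n) : a = b := by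
  by_contra hab
  rcases le_total (F a).length (F b).length with h | h
  · refine hF.not_infix a b hab (infix_of_letters (δ := 0) (by omega) (fun q hq => ?_))
    rw [Nat.zero_add, ← hO.letters b n hb q (by omega), hO.letters a n ha q hq]
  · refine hF.not_infix b a (Ne.symm hab) (infix_of_letters (δ := 0) (by omega) (fun q hq => ?_))
    rw [Nat.zero_add, ← hO.letters a n ha q (by omega), hO.letters b n hb q hq]

/-- Stability forbids a marked occurrence strictly between a marked occurrence of `s` and the
position of its successor. -/
theorem no_violation (hF : SubstringFree F) (hS : Stable F σ) (hO : OccSys F σ W O g) :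
    ∀ (δ : ℕ) (s v : ι) (n : ℕ), O s n → O v (n + δ) → 0 < δ → δ < step F σ s → False := by
  intro δ
  induction δ using Nat.strong_induction_on with
  | _ δ IH =>
  intro s v n hs hv h0 hlt
  have hlen_s := length_eq (σ := σ) hF s
  have hletters : ∀ q, q < (F s).length - δ → q < (F v).length →
      (F s)[δ + q]? = (F v)[q]? := by
    intro q h1 h2
    have e1 := hO.letters s n hs (δ + q) (by omega)
    have e2 := hO.letters v (n + δ) hv q h2
    rw [← e1, ← e2, Nat.add_assoc]
  obtain ⟨o, ho⟩ : ∃ o, o = (F s).length - δ := ⟨_, rfl⟩
  have ho_gt : arc F σ s < o := by omega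
  have ho_lt : o < (F s).length := by omega
  by_cases hov : (F v).length ≤ o
  · have hvs : v ≠ s := by
      rintro rfl
      omega
    exact hF.not_infix v s hvs
      (infix_of_letters (δ := δ) (by omega) (fun q hq => hletters q (by omega) hq))
  have hov' : o < (F v).length := by omega
  have hisov : IsOverlap (F s) (F v) o := overlap_of_letters ho_lt hov' (fun q hq => by
    have e : (F s).length - o + q = δ + q := by omega
    rw [e]
    exact hletters q (by omega) (by omega))
  have hge : o ≤ ov (F s) (F v) := le_ov hisov
  obtain ⟨u, hu⟩ : ∃ u, u = σ.symm v := ⟨_, rfl⟩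
  have hstable : ov (F s) (F v) ≤ max (arc F σ s) (arc F σ u) := by
    rw [hu]
    exact hS s v
  suffices hgoal : arc F σ u < o by
    rcases le_max_iff.mp hstable with h | h <;> omega
  have hlen_u := length_eq (σ := σ) hF u
  have hprev : ∀ N, O v N → step F σ u ≤ N → O u (N - step F σ u) := by
    intro N hN hle
    rw [hu] at hle ⊢
    exact hO.prev v N hN hle
  have hdpos := step_pos (σ := σ) hF u
  rcases lt_trichotomy (step F σ u) δ with hd | hd | hd
  · exfalso
    have h1 := hprev _ hv (by omega)
    have e : n + δ - step F σ u = n + (δ - step F σ u) := by omega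
    rw [e] at h1
    exact IH (δ - step F σ u) (by omega) s u n hs h1 (by omega) (by omega)
  · exfalso
    have h1 := hprev _ hv (by omega)
    have e : n + δ - step F σ u = n := by omega
    rw [e] at h1
    have hus := hO.same_start hF h1 hs
    rw [hus] at hd
    omega
  · obtain ⟨d, hd_def⟩ : ∃ d, d = step F σ u := ⟨_, rfl⟩
    rw [← hd_def] at hd hlen_u hdpos
    have hgpos := hO.g_pos
    obtain ⟨G, hG⟩ : ∃ G, G = g * (d + 1) := ⟨_, rfl⟩
    have hGd : d ≤ G := by
      rw [hG]
      nlinarith
    have h1 : O v (n + δ + G) := by
      rw [hG]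
      exact hO.shift_mul hv (d + 1)
    have h2 := hprev _ h1 (by omega)
    rw [← hd_def] at h2
    have h3 : O s (n + G) := by
      rw [hG]
      exact hO.shift_mul hs (d + 1)
    by_contra hcon
    have hcon' : o ≤ arc F σ u := by omega
    have hle : (d - δ) + (F s).length ≤ (F u).length := by omega
    have hus : s ≠ u := by
      rintro rfl
      omega
    refine hF.not_infix s u hus (infix_of_letters (δ := d - δ) hle (fun q hq => ?_))
    have e1 := hO.letters u _ h2 ((d - δ) + q) (by omega)
    have e2 := hO.letters s _ h3 q hq
    rw [← e1, ← e2]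
    congr 1
    omega

end P333
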