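import Vale.Agent.Lib.P333.Line

namespace P333

variable {α ι : Type*} [Fintype ι]
variable {F : ι → List α} {σ : Equiv.Perm ι}

/-- The marked occurrences of the cycle through `i`, placed on a line with its start at `a0`, modulo
a period `g` dividing the period of the cycle. -/
def occFrom (F : ι → List α) (σ : Equiv.Perm ι) (i : ι) (a0 g : ℕ) (x : ι) (n : ℕ) : Prop :=
  ∃ m, x = (σ ^ m) i ∧ n ≡ a0 + partSum F σ i m [MOD g]

omit [Fintype ι] in
/-- Two different strings cannot start at the same position of a line. -/
theorem no_same_start {W : ℕ → Option α} (hF : SubstringFree F) {a b : ι} (hab : a ≠ b) {n : ℕ}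
    (ha : ∀ q, q < (F a).length → W (n + q) = (F a)[q]?)
    (hb : ∀ q, q < (F b).length → W (n + q) = (F b)[q]?) : False := by
  rcases le_total (F a).length (F b).length with h | h
  · refine hF.not_infix a b hab (infix_of_letters (δ := 0) (by omega) ?_)
    intro q hq
    rw [Nat.zero_add, ← hb q (by omega), ha q hq]
  · refine hF.not_infix b a hab.symm (infix_of_letters (δ := 0) (by omega) ?_)
    intro q hq
    rw [Nat.zero_add, ← ha q (by omega), hb q hq]

omit [Fintype ι] in
/-- A period on the whole line gives equality at multiples. -/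
theorem periodic_mul {β : Type*} {W : ℕ → β} {t : ℕ} (ht : ∀ n, W (n + t) = W n) (m n : ℕ) :
    W (n + m * t) = W n := by
  induction m with
  | zero => simp
  | succ m ih =>
    rw [Nat.succ_mul, ← add_assoc, ht, ih]

omit [Fintype ι] in
/-- The gcd of two periods, at least one of them `p > t`, is a period. -/
theorem periodic_gcd {β : Type*} {W : ℕ → β} {t p : ℕ} (ht : ∀ n, W (n + t) = W n)
    (hp : ∀ n, W (n + p) = W n) (h0 : 0 < t) (h1 : t < p) : ∀ n, W (n + Nat.gcd t p) = W n := by
  have hlt : Nat.gcd t p < p := lt_of_le_of_lt (Nat.le_of_dvd h0 (Nat.gcd_dvd_left t p)) h1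
  obtain ⟨m, -, hm⟩ := Nat.exists_mul_mod_eq_gcd hlt
  intro n
  obtain ⟨q, hq⟩ : ∃ q, t * m = p * q + Nat.gcd t p :=
    ⟨t * m / p, by rw [← hm]; exact (Nat.div_add_mod _ _).symm⟩
  have h3 := periodic_mul hp q (n + Nat.gcd t p)
  have h4 := periodic_mul ht m n
  have h5 : n + Nat.gcd t p + q * p = n + m * t := by
    rw [mul_comm m t, hq]; ring
  rw [← h3, h5, h4]

omit [Fintype ι] in
/-- Congruent positions carry the same letters on a line with period `g`. -/
theorem periodic_modEq {β : Type*} {W : ℕ → β} {g : ℕ} (hg : ∀ n, W (n + g) = W n) {a b : ℕ}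
    (h : a ≡ b [MOD g]) : W a = W b := by
  wlog hab : a ≤ b generalizing a b
  · exact (this h.symm (by omega)).symm
  obtain ⟨c, hc⟩ := (Nat.modEq_iff_dvd' hab).1 h
  have : b = a + c * g := by
    rw [mul_comm]; omega
  rw [this, periodic_mul hg]

/-- The marked occurrences on a line with a period `g` dividing the cycle period. -/
theorem occFrom_sys (hF : SubstringFree F) (i : ι) {g : ℕ} (h0 : 0 < g) {W : ℕ → Option α} {a0 : ℕ}
    (hW : ∀ n, W (a0 + n) = line F σ i n)
    (hg : ∀ n, W (n + g) = W n) (hdvd : g ∣ period F σ (orbit σ i)) :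
    OccSys F σ W (occFrom F σ i a0 g) g where
  g_pos := h0
  letters := by
    rintro s n ⟨m, rfl, hn⟩ q hq
    have := periodic_modEq hg (a := n + q) (b := a0 + partSum F σ i m + q) (hn.add_right q)
    rw [this, add_assoc, hW, line_add_partSum hF, line_letters hF _ hq]
  shift := by
    rintro s n ⟨m, rfl, hn⟩
    refine ⟨m, rfl, ?_⟩
    have : n + g ≡ n + 0 [MOD g] := Nat.ModEq.add_left n (by simp [Nat.ModEq])
    exact this.trans hn
  prev := by
    rintro v n ⟨m, rfl, hn⟩ hle
    have hk := cyc_pos σ i
    obtain ⟨m', hm'⟩ : ∃ m', m + cyc σ i = m' + 1 := ⟨m + cyc σ i - 1, by omega⟩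
    have hv : σ.symm ((σ ^ m) i) = (σ ^ m') i := by
      rw [Equiv.symm_apply_eq, ← pow_add_cyc σ i m, hm', pow_succ', Equiv.Perm.mul_apply]
    rw [hv] at hle ⊢
    refine ⟨m', rfl, ?_⟩
    have h1 : partSum F σ i (m' + 1) = partSum F σ i m' + step F σ ((σ ^ m') i) :=
      partSum_succ i m'
    have h2 : partSum F σ i (m' + 1) = partSum F σ i m + period F σ (orbit σ i) := by
      rw [← hm', partSum_add_cyc]
    have h3 : a0 + partSum F σ i m + period F σ (orbit σ i) ≡ a0 + partSum F σ i m [MOD g] := by
      have : a0 + partSum F σ i m + period F σ (orbit σ i) ≡ a0 + partSum F σ i m + 0 [MOD g] :=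
        Nat.ModEq.add_left _ ((Nat.modEq_zero_iff_dvd).2 hdvd)
      exact this
    have h4 : (n - step F σ ((σ ^ m') i)) + step F σ ((σ ^ m') i)
        ≡ (a0 + partSum F σ i m') + step F σ ((σ ^ m') i) [MOD g] := by
      rw [Nat.sub_add_cancel hle, add_assoc, ← h1, h2, ← add_assoc]
      exact hn.trans h3.symm
    exact Nat.ModEq.add_right_cancel' _ h4

omit [Fintype ι] in
/-- The union of two marked systems on the same line. -/
theorem OccSys.union {W : ℕ → Option α} {O₁ O₂ : ι → ℕ → Prop} {g : ℕ}
    (h₁ : OccSys F σ W O₁ g) (h₂ : OccSys F σ W O₂ g) :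
    OccSys F σ W (fun a n => O₁ a n ∨ O₂ a n) g where
  g_pos := h₁.g_pos
  letters := by
    rintro s n (h | h)
    · exact h₁.letters s n h
    · exact h₂.letters s n h
  shift := by
    rintro s n (h | h)
    · exact Or.inl (h₁.shift s n h)
    · exact Or.inr (h₂.shift s n h)
  prev := by
    rintro v n (h | h) hle
    · exact Or.inl (h₁.prev v n h hle)
    · exact Or.inr (h₂.prev v n h hle)

/-- Primitivity: the line of a cycle of a stable cover has no period smaller than the cycle period. -/
theorem prim (hF : SubstringFree F) (hS : Stable F σ) (i : ι) {t : ℕ} (h0 : 0 < t)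
    (h1 : t < period F σ (orbit σ i)) (ht : ∀ n, line F σ i (n + t) = line F σ i n) : False := by
  set p := period F σ (orbit σ i) with hpdef
  have hp : ∀ n, line F σ i (n + p) = line F σ i n := line_periodic hF i
  set g := Nat.gcd t p with hgdef
  have hg : ∀ n, line F σ i (n + g) = line F σ i n := periodic_gcd ht hp h0 h1
  have hg0 : 0 < g := Nat.gcd_pos_of_pos_left _ h0
  have hgt : g ≤ t := Nat.le_of_dvd h0 (Nat.gcd_dvd_left t p)
  have hdvd : g ∣ p := Nat.gcd_dvd_right t p
  have hO := occFrom_sys (σ := σ) hF i hg0 (W := line F σ i) (a0 := 0) (by simp) hg hdvd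
  have hex : ∃ m, g ≤ partSum F σ i m := ⟨cyc σ i, by rw [partSum_cyc]; omega⟩
  classical
  set m := Nat.find hex with hmdef
  have hm : g ≤ partSum F σ i m := Nat.find_spec hex
  have hm0 : m ≠ 0 := by
    intro h
    rw [h, partSum_zero] at hm
    omega
  obtain ⟨m', hm'⟩ : ∃ m', m = m' + 1 := ⟨m - 1, by omega⟩
  have hlt : partSum F σ i m' < g := by
    by_contra hcon
    have := Nat.find_min' hex (not_lt.1 hcon)
    omega
  have hsucc : partSum F σ i m = partSum F σ i m' + step F σ ((σ ^ m') i) := by
    rw [hm', partSum_succ]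
  have hs : occFrom F σ i 0 g ((σ ^ m') i) (partSum F σ i m') := ⟨m', rfl, by simp [Nat.ModEq]⟩
  have hv : occFrom F σ i 0 g i (partSum F σ i m' + (g - partSum F σ i m')) := by
    refine ⟨0, by simp, ?_⟩
    rw [Nat.add_sub_cancel' hlt.le, partSum_zero]
    simp [Nat.ModEq]
  rcases Nat.lt_or_ge (g - partSum F σ i m') (step F σ ((σ ^ m') i)) with hcase | hcase
  · exact no_violation hF hS hO _ _ _ _ hs hv (by omega) hcase
  · have heq : partSum F σ i m = g := by omega
    have hmk : m < cyc σ i := by
      have := (partSum_strictMono (σ := σ) hF i).lt_iff_lt.1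
        (show partSum F σ i m < partSum F σ i (cyc σ i) by rw [heq, partSum_cyc]; omega)
      exact this
    have hne : (σ ^ m) i ≠ i := pow_ne_of_lt σ i (by omega) hmk
    refine no_same_start (W := line F σ i) (n := g) hF hne ?_ ?_
    · intro q hq
      rw [← heq, line_add_partSum hF, line_letters hF _ hq]
    · intro q hq
      rw [add_comm, hg, line_letters hF _ hq]

omit [Fintype ι] in
/-- Two functions with a common period agreeing on a window of that length are equal. -/
theorem window_ext {β : Type*} {W V : ℕ → β} {p : ℕ} (hW : ∀ n, W (n + p) = W n)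
    (hV : ∀ n, V (n + p) = V n) (h0 : 0 < p) (h : ∀ q, q < p → W q = V q) (n : ℕ) : W n = V n := by
  have e : n % p + n / p * p = n := by
    rw [mul_comm]; exact Nat.mod_add_div n p
  rw [← e, periodic_mul hW, periodic_mul hV]
  exact h _ (Nat.mod_lt _ h0)

omit [Fintype ι] in
/-- A period on a half-line gives a period on the whole line, when the line has some period. -/
theorem periodic_start {β : Type*} {W : ℕ → β} {p s t : ℕ} (hW : ∀ n, W (n + p) = W n)
    (h0 : 0 < p) (h : ∀ r, W (s + r + t) = W (s + r)) (n : ℕ) : W (n + t) = W n := by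
  have hle : s ≤ n + s * p := by nlinarith
  obtain ⟨r, hr⟩ := Nat.exists_eq_add_of_le hle
  have e1 := periodic_mul hW s n
  have e2 := periodic_mul hW s (n + t)
  rw [show n + t + s * p = s + r + t by omega] at e2
  rw [hr] at e1
  rw [← e2, h, e1]

/-- Natural arcs: inside one cycle, an overlap of length at least the period is at most the cover
arc leaving its tail. -/
theorem natural_le (hF : SubstringFree F) (hS : Stable F σ) {x y : ι} (hxy : x ≠ y)
    (hsame : y ∈ orbit σ x) (hp : period F σ (orbit σ x) ≤ ov (F x) (F y)) :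
    ov (F x) (F y) ≤ arc F σ x := by
  by_contra hcon
  push Not at hcon
  obtain ⟨m, hm, rfl⟩ := (mem_orbit_iff σ x y).1 hsame
  have hm0 : m ≠ 0 := by
    rintro rfl
    exact hxy (by simp)
  have h1 := isOverlap_ov (hF.ne_nil x) (hF.ne_nil ((σ ^ m) x))
  set o := ov (F x) (F ((σ ^ m) x)) with ho
  have hlen := length_eq (σ := σ) hF x
  have ho1 := h1.1
  have ho2 := h1.2.1
  set p := period F σ (orbit σ x) with hpdef
  have hp0 : 0 < p := period_pos hF x
  have hper : ∀ n, line F σ x (n + p) = line F σ x n := line_periodic hF x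
  have hstep : step F σ x ≤ partSum F σ x m := by
    have e : partSum F σ x 1 = step F σ x := by
      rw [partSum_succ, partSum_zero]; simp
    rw [← e]
    exact (partSum_strictMono (σ := σ) hF x).monotone (by omega)
  have hlt : partSum F σ x m < p := by
    rw [hpdef, ← partSum_cyc]
    exact partSum_strictMono hF x hm
  set s := (F x).length - o with hs
  have key : ∀ q, q < o → line F σ x (s + q) = line F σ x (partSum F σ x m + q) := by
    intro q hq
    rw [line_letters hF x (by omega), line_add_partSum hF, line_letters hF _ (by omega)]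
    exact overlap_letters h1 hq
  set t := partSum F σ x m - s with ht
  have hst : s + t = partSum F σ x m := by omega
  have hw : ∀ n, line F σ x (n + t) = line F σ x n := by
    apply periodic_start hper hp0 (s := s)
    apply window_ext (p := p) (W := fun r => line F σ x (s + r + t)) (V := fun r => line F σ x (s + r))
    · intro n
      show line F σ x (s + (n + p) + t) = line F σ x (s + n + t)
      rw [show s + (n + p) + t = s + n + t + p by ring, hper]
    · intro n
      show line F σ x (s + (n + p)) = line F σ x (s + n)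
      rw [← add_assoc, hper]
    · exact hp0
    · intro q hq
      show line F σ x (s + q + t) = line F σ x (s + q)
      rw [key q (by omega), show s + q + t = partSum F σ x m + q by omega]
  exact prim hF hS x (t := t) (by omega) (by omega) hw

/-- Blum-type bound: between different cycles the overlap is smaller than the sum of the periods. -/
theorem cross_lt (hF : SubstringFree F) (hS : Stable F σ) {x y : ι} (hdiff : y ∉ orbit σ x) :
    ov (F x) (F y) < period F σ (orbit σ x) + period F σ (orbit σ y) := by
  by_contra hcon
  push Not at hcon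
  have h1 := isOverlap_ov (hF.ne_nil x) (hF.ne_nil y)
  set o := ov (F x) (F y) with ho
  have ho1 := h1.1
  have ho2 := h1.2.1
  set pA := period F σ (orbit σ x) with hpA
  set pB := period F σ (orbit σ y) with hpB
  have hA0 : 0 < pA := period_pos hF x
  have hB0 : 0 < pB := period_pos hF y
  have Wper : ∀ n, line F σ x (n + pA) = line F σ x n := line_periodic hF x
  have Vper : ∀ n, line F σ y (n + pB) = line F σ y n := line_periodic hF y
  set s := (F x).length - o with hs
  have key : ∀ q, q < o → line F σ x (s + q) = line F σ y q := by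
    intro q hq
    rw [line_letters hF x (by omega), line_letters hF y (by omega)]
    exact overlap_letters h1 hq
  have WpB : ∀ n, line F σ x (n + pB) = line F σ x n := by
    apply periodic_start Wper hA0 (s := s)
    apply window_ext (p := pA) (W := fun r => line F σ x (s + r + pB))
      (V := fun r => line F σ x (s + r))
    · intro n
      show line F σ x (s + (n + pA) + pB) = line F σ x (s + n + pB)
      rw [show s + (n + pA) + pB = s + n + pB + pA by ring, Wper]
    · intro n
      show line F σ x (s + (n + pA)) = line F σ x (s + n)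
      rw [← add_assoc, Wper]
    · exact hA0
    · intro q hq
      show line F σ x (s + q + pB) = line F σ x (s + q)
      rw [add_assoc, key _ (by omega), Vper, key _ (by omega)]
  have VpA : ∀ n, line F σ y (n + pA) = line F σ y n := by
    apply window_ext (p := pB) (W := fun r => line F σ y (r + pA)) (V := line F σ y)
    · intro n
      show line F σ y (n + pB + pA) = line F σ y (n + pA)
      rw [show n + pB + pA = n + pA + pB by ring, Vper]
    · exact Vper
    · exact hB0
    · intro q hq
      show line F σ y (q + pA) = line F σ y q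
      rw [← key _ (by omega), ← key _ (by omega), ← add_assoc, Wper]
  have hAB : pA = pB := by
    apply le_antisymm
    · by_contra hlt
      exact prim hF hS x hB0 (by omega) WpB
    · by_contra hlt
      exact prim hF hS y hA0 (by omega) VpA
  have Vper' : ∀ n, line F σ y (n + pA) = line F σ y n := VpA
  have Wshift : ∀ n, line F σ x (s + n) = line F σ y n := by
    apply window_ext (p := pA) (W := fun r => line F σ x (s + r)) (V := line F σ y)
    · intro n
      show line F σ x (s + (n + pA)) = line F σ x (s + n)
      rw [← add_assoc, Wper]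
    · exact Vper'
    · exact hA0
    · intro q hq
      exact key q (by omega)
  have S1 := occFrom_sys (σ := σ) hF x hA0 (W := line F σ x) (a0 := 0) (by simp) Wper dvd_rfl
  have S2 := occFrom_sys (σ := σ) hF y hA0 (W := line F σ x) (a0 := s) Wshift Wper
    (by rw [← hpB, hAB])
  have hO := S1.union S2
  have hmono := partSum_strictMono (σ := σ) hF x
  have hex : ∃ i, s ≤ partSum F σ x i := ⟨s, hmono.le_apply⟩
  classical
  set m := Nat.find hex with hmdef
  have hm : s ≤ partSum F σ x m := Nat.find_spec hex
  have hm0 : m ≠ 0 := by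
    intro h
    rw [h, partSum_zero] at hm
    omega
  obtain ⟨m', hm'⟩ : ∃ m', m = m' + 1 := ⟨m - 1, by omega⟩
  have hlt : partSum F σ x m' < s := by
    by_contra hc
    have := Nat.find_min' hex (not_lt.1 hc)
    omega
  have hsucc : partSum F σ x m = partSum F σ x m' + step F σ ((σ ^ m') x) := by
    rw [hm', partSum_succ]
  have h3 : occFrom F σ x 0 pA ((σ ^ m') x) (partSum F σ x m') := ⟨m', rfl, by simp [Nat.ModEq]⟩
  have h4 : occFrom F σ y s pA y (partSum F σ x m' + (s - partSum F σ x m')) := by
    refine ⟨0, by simp, ?_⟩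
    rw [Nat.add_sub_cancel' hlt.le, partSum_zero]
    simp [Nat.ModEq]
  rcases Nat.lt_or_ge (s - partSum F σ x m') (step F σ ((σ ^ m') x)) with hcase | hcase
  · exact no_violation hF hS hO _ _ _ _ (Or.inl h3) (Or.inr h4) (by omega) hcase
  · have heq : partSum F σ x m = s := by omega
    have hne : (σ ^ m) x ≠ y := by
      intro h
      exact hdiff ((mem_orbit_iff σ x y).2 ⟨m % cyc σ x, Nat.mod_lt _ (cyc_pos σ x), by
        rw [pow_mod_cyc]; exact h⟩)
    refine no_same_start (W := line F σ x) (n := s) hF hne ?_ ?_
    · intro q hq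
      rw [← heq, line_add_partSum hF, line_letters hF _ hq]
    · intro q hq
      rw [Wshift, line_letters hF _ hq]

end P333
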