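import Vale.Agent.Lib.P333.Defs

namespace P333

variable {α ι : Type*}

theorem isOverlap_zero {x y : List α} (hx : x ≠ []) (hy : y ≠ []) : IsOverlap x y 0 := by
  refine ⟨List.length_pos_of_ne_nil hx, List.length_pos_of_ne_nil hy, ?_⟩
  simp

theorem isOverlap_bound {x y : List α} {l : ℕ} (h : IsOverlap x y l) : l ≤ x.length + y.length := by
  have := h.1; omega

theorem le_ov {x y : List α} {l : ℕ} (h : IsOverlap x y l) : l ≤ ov x y := by
  classical
  unfold ov
  exact Nat.le_findGreatest (isOverlap_bound h) h

theorem isOverlap_ov {x y : List α} (hx : x ≠ []) (hy : y ≠ []) : IsOverlap x y (ov x y) := by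
  classical
  unfold ov
  exact Nat.findGreatest_spec (P := IsOverlap x y) (m := 0) (Nat.zero_le _) (isOverlap_zero hx hy)

theorem overlap_letters {x y : List α} {l q : ℕ} (h : IsOverlap x y l) (hq : q < l) :
    x[x.length - l + q]? = y[q]? := by
  obtain ⟨h1, h2, h3⟩ := h
  have h4 : (x.drop (x.length - l))[q]? = x[x.length - l + q]? := by
    rw [List.getElem?_drop]
  rw [← h4, h3, List.getElem?_take_of_lt hq]

theorem overlap_of_letters {x y : List α} {l : ℕ} (hl : l < x.length) (hl' : l < y.length)
    (h : ∀ q, q < l → x[x.length - l + q]? = y[q]?) : IsOverlap x y l := by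
  refine ⟨hl, hl', ?_⟩
  apply List.ext_getElem?
  intro q
  rw [List.getElem?_drop]
  by_cases hq : q < l
  · rw [List.getElem?_take_of_lt hq]
    exact h q hq
  · rw [List.getElem?_take, if_neg hq]
    rw [List.getElem?_eq_none (by omega)]

/-- If `v` occurs in `u` at offset `δ` (letter by letter), then `v` is a factor of `u`. -/
theorem infix_of_letters {u v : List α} {δ : ℕ} (_hlen : δ + v.length ≤ u.length)
    (h : ∀ q, q < v.length → u[δ + q]? = v[q]?) : v <:+: u := by
  refine ⟨u.take δ, u.drop (δ + v.length), ?_⟩
  have hv : (u.drop δ).take v.length = v := by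
    apply List.ext_getElem?
    intro q
    rw [List.getElem?_take]
    split_ifs with hq
    · rw [List.getElem?_drop]; exact h q hq
    · rw [List.getElem?_eq_none (by omega)]
  have h1 : u.take δ ++ ((u.drop δ).take v.length ++ (u.drop δ).drop v.length) = u := by
    rw [List.take_append_drop, List.take_append_drop]
  rw [hv, List.drop_drop] at h1
  rw [List.append_assoc]
  exact h1

/-- Deleting the middle string of a path: `ov(x,y) + ov(y,z) ≤ |y| + ov(x,z)`. -/
theorem ov_add_ov_le {x y z : List α} (hx : x ≠ []) (hy : y ≠ []) (hz : z ≠ []) :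
    ov x y + ov y z ≤ y.length + ov x z := by
  by_cases hle : ov x y + ov y z ≤ y.length
  · omega
  push Not at hle
  have h1 := isOverlap_ov hx hy
  have h2 := isOverlap_ov hy hz
  set a := ov x y with ha
  set b := ov y z with hb
  have ha1 := h1.1
  have ha2 := h1.2.1
  have hb1 := h2.1
  have hb2 := h2.2.1
  suffices IsOverlap x z (a + b - y.length) by
    have := le_ov this
    omega
  apply overlap_of_letters (by omega) (by omega)
  intro q hq
  have e1 := overlap_letters h1 (q := (y.length - b) + q) (by omega)
  have e2 := overlap_letters h2 (q := q) (by omega)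
  rw [← e2, ← e1]
  congr 1
  omega

variable {F : ι → List α} {σ : Equiv.Perm ι}

theorem arc_isOverlap (hF : SubstringFree F) (i : ι) :
    IsOverlap (F i) (F (σ i)) (arc F σ i) :=
  isOverlap_ov (hF.ne_nil _) (hF.ne_nil _)

theorem arc_lt_left (hF : SubstringFree F) (i : ι) : arc F σ i < (F i).length :=
  (arc_isOverlap hF i).1

theorem arc_lt_right (hF : SubstringFree F) (i : ι) : arc F σ i < (F (σ i)).length :=
  (arc_isOverlap hF i).2.1

theorem step_pos (hF : SubstringFree F) (i : ι) : 0 < step F σ i := by
  have := arc_lt_left (σ := σ) hF i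
  unfold step; omega

theorem length_eq (hF : SubstringFree F) (i : ι) : (F i).length = arc F σ i + step F σ i := by
  have := arc_lt_left (σ := σ) hF i
  unfold step; omega

/-- The letters of `F i` from position `step i` on are the letters of `F (σ i)`. -/
theorem step_letters (hF : SubstringFree F) (i : ι) {q : ℕ} (h1 : step F σ i ≤ q)
    (h2 : q < (F i).length) : (F i)[q]? = (F (σ i))[q - step F σ i]? := by
  have hlen := length_eq (σ := σ) hF i
  have := overlap_letters (arc_isOverlap (σ := σ) hF i) (q := q - step F σ i) (by omega)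
  rw [← this]
  congr 1
  unfold step at *
  omega

end P333
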